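import Vale.Agent.P207.N3.H646.JC

/-!
# Nonstationary linearisation (bunched case), with parameters

`F n = f (n-1) ∘ … ∘ f 0` contracts like `lam ^ n` in all derivatives, the inverse of its
derivative at `0` grows at most like `mu ^ n`, and `lam ^ 2 * mu < 1`. Then
`(D F n 0)⁻¹ ∘ F n` converges in `C^k` for all `k`, uniformly in the parameter.
-/

open Set Filter Topology Metric
open scoped ContDiff Nat

set_option linter.unusedSectionVars false

noncomputable section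

namespace Vale.Agent.P207.H77

open Vale.Agent.P207.N3.H646

universe uE uF uG

variable {E : Type uE} [NormedAddCommGroup E] [NormedSpace ℝ E]
variable {F : Type uF} [NormedAddCommGroup F] [NormedSpace ℝ F]
variable {G : Type uG} [NormedAddCommGroup G] [NormedSpace ℝ G]

/-- the derivatives of a composition with a map whose derivatives are of size `ε` -/
theorem iter_comp_small {g : F → G} {f : E → F} {t : Set F} {s : Set E} (ht : IsOpen t)
    (hs : IsOpen s) (hg : ContDiffOn ℝ ∞ g t) (hf : ContDiffOn ℝ ∞ f s) (hm : MapsTo f s t)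
    {k : ℕ} (hk : 1 ≤ k) {C M ε : ℝ} (hC : ∀ i ≤ k, ∀ y ∈ t, ‖iteratedFDeriv ℝ i g y‖ ≤ C)
    (hε0 : 0 ≤ ε) (hε1 : ε ≤ 1) (hM : 1 ≤ M)
    (hD : ∀ i, 1 ≤ i → i ≤ k → ∀ x ∈ s, ‖iteratedFDeriv ℝ i f x‖ ≤ M * ε) :
    ∀ x ∈ s, ‖iteratedFDeriv ℝ k (fun x => g (f x)) x‖ ≤ k ! * C * M ^ k * ε := by
  intro x hx
  have hk0 : (0 : ℝ) < k := by exact_mod_cast hk
  set δ : ℝ := ε ^ ((1 : ℝ) / k) with hδ
  have hδ0 : 0 ≤ δ := Real.rpow_nonneg hε0 _
  have hδk : δ ^ k = ε := by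
    rw [hδ, ← Real.rpow_natCast, ← Real.rpow_mul hε0, one_div, inv_mul_cancel₀ hk0.ne',
      Real.rpow_one]
  have hδ1 : δ ≤ 1 := Real.rpow_le_one hε0 hε1 (by positivity)
  have h1 : ∀ i, 1 ≤ i → i ≤ k → M * ε ≤ (M * δ) ^ i := by
    intro i hi1 hik
    rw [mul_pow]
    have h2 : M ≤ M ^ i := le_self_pow₀ hM (by omega)
    have h3 : ε ≤ δ ^ i := by
      rw [← hδk]; exact pow_le_pow_of_le_one hδ0 hδ1 hik
    exact mul_le_mul h2 h3 hε0 (by positivity)
  have h4 := norm_iteratedFDerivWithin_comp_le (n := k) (x := x) hg hf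
    (by exact_mod_cast le_top) ht.uniqueDiffOn hs.uniqueDiffOn hm hx (C := C) (D := M * δ)
    (fun i hi => by
      rw [iteratedFDerivWithin_of_isOpen i ht (hm hx)]; exact hC i hi _ (hm hx))
    (fun i hi1 hik => by
      rw [iteratedFDerivWithin_of_isOpen i hs hx]
      exact (hD i hi1 hik x hx).trans (h1 i hi1 hik))
  rw [iteratedFDerivWithin_of_isOpen k hs hx, mul_pow, hδk] at h4
  calc ‖iteratedFDeriv ℝ k (fun x => g (f x)) x‖ ≤ k ! * C * (M ^ k * ε) := h4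
    _ = k ! * C * M ^ k * ε := by ring

/-- a smooth map with vanishing value and derivative at `0` -/
theorem quad_bound {q : E → E} {r K : ℝ} (hr : 0 < r) (hq : ContDiffOn ℝ ∞ q (ball 0 r))
    (h0 : q 0 = 0) (h1 : fderiv ℝ q 0 = 0)
    (h2 : ∀ y ∈ ball (0 : E) r, ‖iteratedFDeriv ℝ 2 q y‖ ≤ K) :
    ∀ y ∈ ball (0 : E) r, ‖fderiv ℝ q y‖ ≤ K * ‖y‖ ∧ ‖q y‖ ≤ K * ‖y‖ * ‖y‖ := by
  have hsm : ∀ y ∈ ball (0 : E) r, ContDiffAt ℝ ∞ q y := fun y hy =>
    hq.contDiffAt (isOpen_ball.mem_nhds hy)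
  have hd : ∀ y ∈ ball (0 : E) r, DifferentiableAt ℝ (fderiv ℝ q) y := fun y hy =>
    ((hsm y hy).fderiv_right (m := ∞) (by simp)).differentiableAt (by simp)
  have hb : ∀ y ∈ ball (0 : E) r, ‖fderiv ℝ (fderiv ℝ q) y‖ ≤ K := by
    intro y hy
    have := h2 y hy
    rwa [← norm_iteratedFDeriv_fderiv, ← norm_iteratedFDeriv_fderiv, norm_iteratedFDeriv_zero] at this
  have hK0 : 0 ≤ K := (norm_nonneg _).trans (h2 0 (mem_ball_self hr))
  have h3 : ∀ y ∈ ball (0 : E) r, ‖fderiv ℝ q y‖ ≤ K * ‖y‖ := by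
    intro y hy
    have := (convex_ball (0 : E) r).norm_image_sub_le_of_norm_fderiv_le hd hb
      (mem_ball_self hr) hy
    simpa [h1] using this
  intro y hy
  refine ⟨h3 y hy, ?_⟩
  have h4 : ∀ z ∈ segment ℝ (0 : E) y, ‖fderiv ℝ q z‖ ≤ K * ‖y‖ := by
    intro z hz
    have hzb : z ∈ ball (0 : E) r :=
      (convex_ball (0 : E) r).segment_subset (mem_ball_self hr) hy hz
    have hzn : ‖z‖ ≤ ‖y‖ := by
      obtain ⟨a, b, ha, hb', hab, rfl⟩ := hz
      simp only [smul_zero, zero_add, norm_smul, Real.norm_eq_abs, abs_of_nonneg hb']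
      exact mul_le_of_le_one_left (norm_nonneg _) (by linarith)
    exact (h3 z hzb).trans (mul_le_mul_of_nonneg_left hzn hK0)
  have h5 : ∀ z ∈ segment ℝ (0 : E) y, DifferentiableAt ℝ q z := fun z hz =>
    (hsm z ((convex_ball (0 : E) r).segment_subset (mem_ball_self hr) hy hz)).differentiableAt
      (by simp)
  have := (convex_segment (0 : E) y).norm_image_sub_le_of_norm_fderiv_le h5 h4
    (left_mem_segment ℝ _ _) (right_mem_segment ℝ _ _)
  simpa [h0] using this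

/-- a smooth map which vanishes to second order at `0`, composed with a small map -/
theorem iter_quad_comp {q f : E → E} {r : ℝ} (hr : 0 < r) (hq : ContDiffOn ℝ ∞ q (ball 0 r))
    (h0 : q 0 = 0) (h1 : fderiv ℝ q 0 = 0) (hf : ContDiffOn ℝ ∞ f (ball 0 r))
    (hm : MapsTo f (ball 0 r) (ball 0 r)) (k : ℕ) {M K ε : ℝ} (hε0 : 0 ≤ ε) (hε1 : ε ≤ 1)
    (hM : 1 ≤ M) (hK0 : 0 ≤ K)
    (hK : ∀ i, 1 ≤ i → i ≤ k + 2 → ∀ y ∈ ball (0 : E) r, ‖iteratedFDeriv ℝ i q y‖ ≤ K)
    (hf0 : ∀ x ∈ ball (0 : E) r, ‖f x‖ ≤ M * ε)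
    (hD : ∀ i, 1 ≤ i → i ≤ k + 1 → ∀ x ∈ ball (0 : E) r, ‖iteratedFDeriv ℝ i f x‖ ≤ M * ε) :
    ∀ x ∈ ball (0 : E) r, ‖iteratedFDeriv ℝ k (fun x => q (f x)) x‖
      ≤ (2 ^ k * (k ! * M ^ k * K * M) * M) * ε ^ 2 := by
  have hball : IsOpen (ball (0 : E) r) := isOpen_ball
  have hsm : ∀ y ∈ ball (0 : E) r, ContDiffAt ℝ ∞ q y := fun y hy =>
    hq.contDiffAt (hball.mem_nhds hy)
  have hsf : ∀ y ∈ ball (0 : E) r, ContDiffAt ℝ ∞ f y := fun y hy =>
    hf.contDiffAt (hball.mem_nhds hy)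
  have hfac : (1 : ℝ) ≤ k ! := by exact_mod_cast Nat.one_le_iff_ne_zero.mpr (Nat.factorial_ne_zero k)
  have hq2 := quad_bound hr hq h0 h1 (fun y hy => hK 2 (by omega) (by omega) y hy)
  have hdq : ContDiffOn ℝ ∞ (fderiv ℝ q) (ball 0 r) := fun y hy =>
    ((hsm y hy).fderiv_right (m := ∞) (by simp)).contDiffWithinAt
  have hM0 : 0 ≤ M := by linarith
  -- the derivatives of `Dq ∘ f`
  have hA : ∀ i ≤ k, ∀ x ∈ ball (0 : E) r,
      ‖iteratedFDeriv ℝ i (fun x => fderiv ℝ q (f x)) x‖ ≤ (k ! * M ^ k * K * M) * ε := by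
    intro i hi x hx
    rcases Nat.eq_zero_or_pos i with rfl | hi1
    · rw [norm_iteratedFDeriv_zero]
      have h3 := (hq2 (f x) (hm hx)).1
      have h4 : K * ‖f x‖ ≤ K * (M * ε) := mul_le_mul_of_nonneg_left (hf0 x hx) hK0
      have h5 : K * (M * ε) ≤ (k ! * M ^ k * K * M) * ε := by
        have h6 : (1 : ℝ) ≤ k ! * M ^ k := one_le_mul_of_one_le_of_one_le hfac (one_le_pow₀ hM)
        have h7 : 0 ≤ K * M * ε := by positivity
        nlinarith [mul_le_mul_of_nonneg_right h6 h7]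
      linarith
    · have h3 := iter_comp_small hball hball hdq hf hm hi1 (C := K) (M := M) (ε := ε)
        (fun j hj y hy => by
          rw [norm_iteratedFDeriv_fderiv]; exact hK (j + 1) (by omega) (by omega) y hy) hε0 hε1 hM
        (fun j hj1 hj2 y hy => hD j hj1 (by omega) y hy) x hx
      refine h3.trans (mul_le_mul_of_nonneg_right ?_ hε0)
      have h4 : (i ! : ℝ) ≤ k ! := by exact_mod_cast Nat.factorial_le hi
      have h5 : M ^ i ≤ M ^ k := pow_le_pow_right₀ hM hi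
      calc (i ! : ℝ) * K * M ^ i ≤ k ! * K * M ^ k := by gcongr
        _ ≤ k ! * K * M ^ k * M := le_mul_of_one_le_right (by positivity) hM
        _ = k ! * M ^ k * K * M := by ring
  intro x hx
  rcases Nat.eq_zero_or_pos k with rfl | hk
  · rw [norm_iteratedFDeriv_zero]
    have h3 := (hq2 (f x) (hm hx)).2
    have h4 : K * ‖f x‖ * ‖f x‖ ≤ K * (M * ε) * (M * ε) := by
      have := hf0 x hx
      gcongr
    simp only [pow_zero, Nat.factorial_zero, Nat.cast_one, one_mul, mul_one]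
    calc ‖q (f x)‖ ≤ K * (M * ε) * (M * ε) := h3.trans h4
      _ = K * M * M * ε ^ 2 := by ring
  · obtain ⟨j, rfl⟩ : ∃ j, k = j + 1 := ⟨k - 1, by omega⟩
    rw [← norm_iteratedFDeriv_fderiv]
    have h3 : fderiv ℝ (fun x => q (f x)) =ᶠ[𝓝 x]
        fun x => (ContinuousLinearMap.compL ℝ E E E) (fderiv ℝ q (f x)) (fderiv ℝ f x) := by
      filter_upwards [hball.mem_nhds hx] with y hy
      exact fderiv_comp y ((hsm _ (hm hy)).differentiableAt (by simp))
        ((hsf y hy).differentiableAt (by simp))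
    rw [(h3.iteratedFDeriv ℝ j).eq_of_nhds]
    have h4 : ContDiffOn ℝ ∞ (fun x => fderiv ℝ q (f x)) (ball 0 r) := hdq.comp hf hm
    have h5 : ContDiffOn ℝ ∞ (fderiv ℝ f) (ball 0 r) := fun y hy =>
      ((hsf y hy).fderiv_right (m := ∞) (by simp)).contDiffWithinAt
    have h6 := (ContinuousLinearMap.compL ℝ E E E).norm_iteratedFDerivWithin_le_of_bilinear_of_le_one
      h4 h5 hball.uniqueDiffOn hx (n := j) (by exact_mod_cast le_top)
      (ContinuousLinearMap.norm_compL_le ℝ E E E)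
    rw [iteratedFDerivWithin_of_isOpen j hball hx] at h6
    refine h6.trans ?_
    have h7 : ∀ i ∈ Finset.range (j + 1), (j.choose i : ℝ) *
        ‖iteratedFDerivWithin ℝ i (fun x => fderiv ℝ q (f x)) (ball 0 r) x‖ *
        ‖iteratedFDerivWithin ℝ (j - i) (fderiv ℝ f) (ball 0 r) x‖ ≤
        (j.choose i : ℝ) * (((j + 1) ! * M ^ (j + 1) * K * M) * ε * (M * ε)) := by
      intro i hi
      have hi' : i ≤ j := by simpa [Nat.lt_succ_iff] using hi
      rw [iteratedFDerivWithin_of_isOpen i hball hx, iteratedFDerivWithin_of_isOpen (j - i) hball hx,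
        norm_iteratedFDeriv_fderiv, mul_assoc]
      refine mul_le_mul_of_nonneg_left ?_ (by positivity)
      exact mul_le_mul (hA i (by omega) x hx) (hD (j - i + 1) (by omega) (by omega) x hx)
        (norm_nonneg _) (by positivity)
    refine (Finset.sum_le_sum h7).trans ?_
    rw [← Finset.sum_mul]
    have h8 : (∑ i ∈ Finset.range (j + 1), (j.choose i : ℝ)) = 2 ^ j := by
      exact_mod_cast Nat.sum_range_choose j
    rw [h8]
    have h9 : (2 : ℝ) ^ j ≤ 2 ^ (j + 1) := pow_le_pow_right₀ (by norm_num) (by omega)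
    calc (2 : ℝ) ^ j * (((j + 1) ! * M ^ (j + 1) * K * M) * ε * (M * ε))
        ≤ 2 ^ (j + 1) * (((j + 1) ! * M ^ (j + 1) * K * M) * ε * (M * ε)) := by
          gcongr
      _ = _ := by ring

/-! ### The limit -/

section Limit

variable {P : Type*} [TopologicalSpace P] [CompleteSpace E]

/-- the data of the nonstationary linearisation, with a parameter -/
structure LinData (r lam mu C' : ℝ) (K C : ℕ → ℝ) (f F : ℕ → P → E → E)
    (A : ℕ → P → E ≃L[ℝ] E) : Prop where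
  r0 : 0 < r
  lam0 : 0 ≤ lam
  lam1 : lam ≤ 1
  mu0 : 0 ≤ mu
  rate : lam ^ 2 * mu < 1
  jf : ∀ n, JC ((univ : Set P) ×ˢ ball (0 : E) r) (f n)
  jF : ∀ n, JC ((univ : Set P) ×ˢ ball (0 : E) r) (F n)
  maps : ∀ n p, MapsTo (F n p) (ball 0 r) (ball 0 r)
  succ : ∀ n p, ∀ u ∈ ball (0 : E) r, F (n + 1) p u = f n p (F n p u)
  F0 : ∀ n p, F n p 0 = 0
  f0 : ∀ n p, f n p 0 = 0
  fK : ∀ k n p, ∀ u ∈ ball (0 : E) r, ‖iteratedFDeriv ℝ k (f n p) u‖ ≤ K k
  FC : ∀ k n p, ∀ u ∈ ball (0 : E) r, ‖iteratedFDeriv ℝ k (F n p) u‖ ≤ C k * lam ^ n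
  AF : ∀ n p, fderiv ℝ (F n p) 0 = (A n p : E →L[ℝ] E)
  Ainv : ∀ n p, ‖((A n p).symm : E →L[ℝ] E)‖ ≤ C' * mu ^ n
  Acont : ∀ n, Continuous fun p => ((A n p).symm : E →L[ℝ] E)

variable {r lam mu C' : ℝ} {K C : ℕ → ℝ} {f F : ℕ → P → E → E} {A : ℕ → P → E ≃L[ℝ] E}

namespace LinData

/-- the nonlinear part of the step -/
def qq (f : ℕ → P → E → E) (n : ℕ) (p : P) (u : E) : E := f n p u - fderiv ℝ (f n p) 0 u

/-- the normalised composition -/
def gg (F : ℕ → P → E → E) (A : ℕ → P → E ≃L[ℝ] E) (n : ℕ) (p : P) (u : E) : E :=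
  (A n p).symm (F n p u)

/-- the difference of two successive normalised compositions -/
def dd (f F : ℕ → P → E → E) (A : ℕ → P → E ≃L[ℝ] E) (n : ℕ) (p : P) (u : E) : E :=
  (A (n + 1) p).symm (qq f n p (F n p u))

variable (h : LinData r lam mu C' K C f F A)
include h

theorem smf (n : ℕ) (p : P) : ContDiffOn ℝ ∞ (f n p) (ball 0 r) := fun u hu =>
  ((h.jf n).smooth (p, u) ⟨trivial, hu⟩).contDiffWithinAt

theorem smF (n : ℕ) (p : P) : ContDiffOn ℝ ∞ (F n p) (ball 0 r) := fun u hu =>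
  ((h.jF n).smooth (p, u) ⟨trivial, hu⟩).contDiffWithinAt

theorem A_succ (n : ℕ) (p : P) (v : E) :
    (A (n + 1) p).symm (fderiv ℝ (f n p) 0 v) = (A n p).symm v := by
  have h0 : (0 : E) ∈ ball (0 : E) r := mem_ball_self h.r0
  have h1 : fderiv ℝ (F (n + 1) p) 0 = (fderiv ℝ (f n p) 0).comp (fderiv ℝ (F n p) 0) := by
    have h2 : F (n + 1) p =ᶠ[𝓝 0] fun u => f n p (F n p u) := by
      filter_upwards [isOpen_ball.mem_nhds h0] with u hu using h.succ n p u hu
    rw [h2.fderiv_eq]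
    have h3 : DifferentiableAt ℝ (f n p) (F n p 0) := by
      rw [h.F0]
      exact (((h.jf n).smooth (p, 0) ⟨trivial, h0⟩).differentiableAt (by simp))
    have h4 := fderiv_comp (0 : E) h3
      (((h.jF n).smooth (p, 0) ⟨trivial, h0⟩).differentiableAt (by simp))
    rw [h.F0] at h4
    exact h4
  rw [h.AF, h.AF] at h1
  apply (A (n + 1) p).injective
  rw [ContinuousLinearEquiv.apply_symm_apply]
  have h5 := congrArg (fun L : E →L[ℝ] E => L ((A n p).symm v)) h1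
  simp only [ContinuousLinearMap.comp_apply, ContinuousLinearEquiv.coe_coe,
    ContinuousLinearEquiv.apply_symm_apply] at h5
  exact h5.symm

theorem dd_eq (n : ℕ) (p : P) {u : E} (hu : u ∈ ball (0 : E) r) :
    dd f F A n p u = gg F A (n + 1) p u - gg F A n p u := by
  unfold dd gg qq
  rw [map_sub, h.A_succ, h.succ n p u hu]

theorem sum_dd (n : ℕ) (p : P) {u : E} (hu : u ∈ ball (0 : E) r) :
    gg F A n p u = gg F A 0 p u + ∑ i ∈ Finset.range n, dd f F A i p u := by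
  induction n with
  | zero => simp
  | succ n ih =>
    rw [Finset.sum_range_succ, h.dd_eq n p hu, ← add_assoc, ← ih]; abel

theorem C'0 : 0 ≤ C' ∨ IsEmpty P := by
  by_cases hP : Nonempty P
  · obtain ⟨p⟩ := hP
    left
    have := h.Ainv 0 p
    simp only [pow_zero, mul_one] at this
    exact (norm_nonneg _).trans this
  · right; exact not_nonempty_iff.mp hP

/-- the constant of the `k`-th derivatives -/
def cst (mu C' : ℝ) (K C : ℕ → ℝ) (k : ℕ) : ℝ :=
  C' * mu * ((2 ^ k * (k ! * (1 + ∑ i ∈ Finset.range (k + 2), |C i|) ^ k *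
    (∑ i ∈ Finset.range (k + 3), (|K i| + |K 1|)) * (1 + ∑ i ∈ Finset.range (k + 2), |C i|)) *
    (1 + ∑ i ∈ Finset.range (k + 2), |C i|)))

theorem iter_dd (k n : ℕ) (p : P) : ∀ u ∈ ball (0 : E) r,
    ‖iteratedFDeriv ℝ k (dd f F A n p) u‖ ≤ cst mu C' K C k * (lam ^ 2 * mu) ^ n := by
  intro u hu
  have h0 : (0 : E) ∈ ball (0 : E) r := mem_ball_self h.r0
  set M : ℝ := 1 + ∑ i ∈ Finset.range (k + 2), |C i| with hM
  set K' : ℝ := ∑ i ∈ Finset.range (k + 3), (|K i| + |K 1|) with hK'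
  have hM1 : 1 ≤ M := by
    rw [hM]; have : 0 ≤ ∑ i ∈ Finset.range (k + 2), |C i| := Finset.sum_nonneg fun i _ => abs_nonneg _
    linarith
  have hCM : ∀ i ≤ k + 1, C i ≤ M := by
    intro i hi
    have h1 : |C i| ≤ ∑ i ∈ Finset.range (k + 2), |C i| :=
      Finset.single_le_sum (fun i _ => abs_nonneg (C i)) (Finset.mem_range.mpr (by omega))
    linarith [le_abs_self (C i)]
  have hKK : ∀ i ≤ k + 2, |K i| + |K 1| ≤ K' := fun i hi =>
    Finset.single_le_sum (f := fun i => |K i| + |K 1|) (fun i _ => by positivity)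
      (Finset.mem_range.mpr (by omega))
  have hK0 : 0 ≤ K' := Finset.sum_nonneg fun i _ => by positivity
  have hε0 : 0 ≤ lam ^ n := pow_nonneg h.lam0 n
  have hε1 : lam ^ n ≤ 1 := pow_le_one₀ h.lam0 h.lam1
  have hdf : DifferentiableAt ℝ (f n p) 0 :=
    ((h.jf n).smooth (p, 0) ⟨trivial, h0⟩).differentiableAt (by simp)
  have hL : ContDiff ℝ ∞ fun u => fderiv ℝ (f n p) 0 u := (fderiv ℝ (f n p) 0).contDiff
  have hq : ContDiffOn ℝ ∞ (qq f n p) (ball 0 r) := (h.smf n p).sub hL.contDiffOn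
  have hq0 : qq f n p 0 = 0 := by simp [qq, h.f0]
  have hq1 : fderiv ℝ (qq f n p) 0 = 0 := by
    have : fderiv ℝ (qq f n p) 0 = fderiv ℝ (f n p) 0 - fderiv ℝ (fun u => fderiv ℝ (f n p) 0 u) 0 :=
      fderiv_fun_sub hdf (fderiv ℝ (f n p) 0).differentiableAt
    rw [this, ContinuousLinearMap.fderiv, sub_self]
  have hf1 : ‖fderiv ℝ (f n p) 0‖ ≤ |K 1| := by
    have := h.fK 1 n p 0 h0
    rw [← norm_iteratedFDeriv_fderiv, norm_iteratedFDeriv_zero] at this
    exact this.trans (le_abs_self _)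
  have hr1 : ∀ k, ∀ y ∈ ball (0 : E) r, ‖iteratedFDeriv ℝ k (qq f n p) y‖ ≤
      |K k| + ‖iteratedFDeriv ℝ k (fun u => fderiv ℝ (f n p) 0 u) y‖ := by
    intro k y hy
    have h1 : iteratedFDeriv ℝ k (qq f n p) y = iteratedFDeriv ℝ k (f n p) y -
        iteratedFDeriv ℝ k (fun u => fderiv ℝ (f n p) 0 u) y :=
      iteratedFDeriv_sub_apply
        (((h.jf n).smooth (p, y) ⟨trivial, hy⟩).of_le (by exact_mod_cast le_top))
        (hL.contDiffAt.of_le (by exact_mod_cast le_top))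
    rw [h1]
    refine (norm_sub_le _ _).trans (add_le_add ?_ le_rfl)
    exact (h.fK k n p y hy).trans (le_abs_self _)
  have hlin : ∀ k, 1 ≤ k → ∀ y, ‖iteratedFDeriv ℝ k (fun u => fderiv ℝ (f n p) 0 u) y‖ ≤ |K 1| := by
    intro k hk y
    obtain ⟨j, rfl⟩ : ∃ j, k = j + 1 := ⟨k - 1, by omega⟩
    rw [← norm_iteratedFDeriv_fderiv]
    have h2 : fderiv ℝ (fun u => fderiv ℝ (f n p) 0 u) = fun _ => fderiv ℝ (f n p) 0 := by
      funext z; exact ContinuousLinearMap.fderiv _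
    rw [h2]
    rcases j with _ | j
    · rw [norm_iteratedFDeriv_zero]; exact hf1
    · rw [iteratedFDeriv_const_of_ne (by omega)]
      simp
  have hK2 : ∀ i, 1 ≤ i → i ≤ k + 2 → ∀ y ∈ ball (0 : E) r,
      ‖iteratedFDeriv ℝ i (qq f n p) y‖ ≤ K' := fun i hi1 hi2 y hy =>
    ((hr1 i y hy).trans (add_le_add le_rfl (hlin i hi1 y))).trans (hKK i hi2)
  have key := iter_quad_comp h.r0 hq hq0 hq1 (h.smF n p) (h.maps n p) k hε0 hε1 hM1 hK0 hK2
    (fun x hx => by
      have := h.FC 0 n p x hx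
      rw [norm_iteratedFDeriv_zero] at this
      exact this.trans (mul_le_mul_of_nonneg_right (hCM 0 (by omega)) hε0))
    (fun i hi1 hi2 x hx => (h.FC i n p x hx).trans
      (mul_le_mul_of_nonneg_right (hCM i hi2) hε0)) u hu
  have hsq : ContDiffAt ℝ ∞ (fun x => qq f n p (F n p x)) u :=
    (hq.comp (h.smF n p) (h.maps n p)).contDiffAt (isOpen_ball.mem_nhds hu)
  have h3 := ((A (n + 1) p).symm : E →L[ℝ] E).norm_iteratedFDeriv_comp_left hsq
    (n := k) (by exact_mod_cast le_top)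
  have h4 : ‖iteratedFDeriv ℝ k (dd f F A n p) u‖ ≤
      ‖((A (n + 1) p).symm : E →L[ℝ] E)‖ * ‖iteratedFDeriv ℝ k (fun x => qq f n p (F n p x)) u‖ := h3
  refine h4.trans ((mul_le_mul (h.Ainv (n + 1) p) key (norm_nonneg _)
    ((norm_nonneg _).trans (h.Ainv (n + 1) p))).trans (le_of_eq ?_))
  unfold cst
  rw [← hM, ← hK']
  ring

theorem jc_gg (n : ℕ) : JC ((univ : Set P) ×ˢ ball (0 : E) r) (gg F A n) := by
  have hc : JC ((univ : Set P) ×ˢ ball (0 : E) r) (fun p (_ : E) => ((A n p).symm : E →L[ℝ] E)) :=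
    JC.of_param (h.Acont n).continuousOn
  have h1 := JC.bilin (G' := E) (h.jF n) hc
  have h2 := h1.post (g := fun z : E × (E →L[ℝ] E) => z.2 z.1) isOpen_univ
    (by
      have : ContDiff ℝ ∞ fun z : E × (E →L[ℝ] E) => z.2 z.1 :=
        contDiff_snd.clm_apply contDiff_fst
      exact this.contDiffOn) (fun _ _ => trivial)
  exact h2

theorem jc_dd (n : ℕ) : JC ((univ : Set P) ×ˢ ball (0 : E) r) (dd f F A n) := by
  refine ((h.jc_gg (n + 1)).sub (h.jc_gg n)).congr fun p hp => ?_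
  filter_upwards [isOpen_ball.mem_nhds hp.2] with u hu
  exact h.dd_eq n p.1 hu

/-- **the limit** -/
def lim (f F : ℕ → P → E → E) (A : ℕ → P → E ≃L[ℝ] E) (p : P) (u : E) : E :=
  gg F A 0 p u + ∑' i, dd f F A i p u

theorem rate0 : 0 ≤ lam ^ 2 * mu := mul_nonneg (pow_nonneg h.lam0 2) h.mu0

theorem summ (k : ℕ) : Summable fun i => cst mu C' K C k * (lam ^ 2 * mu) ^ i :=
  (summable_geometric_of_lt_one h.rate0 h.rate).mul_left _

theorem jc_lim : JC ((univ : Set P) ×ˢ ball (0 : E) r) (lim f F A) :=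
  (h.jc_gg 0).add (JC.tsum isOpen_ball (convex_ball (0 : E) r).isPreconnected
    (fun i => h.jc_dd i) (v := fun k i => cst mu C' K C k * (lam ^ 2 * mu) ^ i)
    (fun k => h.summ k) (fun k i p u hu => h.iter_dd k i p u hu))

theorem lim_sub (n : ℕ) (p : P) {u : E} (hu : u ∈ ball (0 : E) r) :
    lim f F A p u - gg F A n p u = ∑' i, dd f F A (i + n) p u := by
  have h1 : Summable fun i => dd f F A i p u := by
    refine Summable.of_norm_bounded (h.summ 0) fun i => ?_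
    have := h.iter_dd 0 i p u hu
    rwa [norm_iteratedFDeriv_zero] at this
  have h2 := h1.sum_add_tsum_nat_add n
  rw [h.sum_dd n p hu, lim, ← h2]
  abel

theorem iter_lim_sub (k n : ℕ) (p : P) {u : E} (hu : u ∈ ball (0 : E) r) :
    ‖iteratedFDeriv ℝ k (lim f F A p) u - iteratedFDeriv ℝ k (gg F A n p) u‖ ≤
      cst mu C' K C k / (1 - lam ^ 2 * mu) * (lam ^ 2 * mu) ^ n := by
  have h1 : iteratedFDeriv ℝ k (lim f F A p) u - iteratedFDeriv ℝ k (gg F A n p) u =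
      iteratedFDeriv ℝ k (fun u => lim f F A p u - gg F A n p u) u :=
    (iteratedFDeriv_sub_apply
      ((h.jc_lim.smooth (p, u) ⟨trivial, hu⟩).of_le (by exact_mod_cast le_top))
      (((h.jc_gg n).smooth (p, u) ⟨trivial, hu⟩).of_le (by exact_mod_cast le_top))).symm
  have h2 : (fun u => lim f F A p u - gg F A n p u) =ᶠ[𝓝 u] fun u => ∑' i, dd f F A (i + n) p u := by
    filter_upwards [isOpen_ball.mem_nhds hu] with w hw using h.lim_sub n p hw
  rw [h1, (h2.iteratedFDeriv ℝ k).eq_of_nhds]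
  have hs : ∀ k, Summable fun i => cst mu C' K C k * (lam ^ 2 * mu) ^ (i + n) := fun k =>
    (summable_nat_add_iff n).mpr (h.summ k)
  rw [iter_tsum isOpen_ball (convex_ball (0 : E) r).isPreconnected
    (fun i => fun w hw => ((h.jc_dd (i + n)).smooth (p, w) ⟨trivial, hw⟩).contDiffWithinAt)
    (v := fun k i => cst mu C' K C k * (lam ^ 2 * mu) ^ (i + n)) hs
    (fun k i u hu => h.iter_dd k (i + n) p u hu) k u hu]
  have h3 : ∀ i, ‖iteratedFDeriv ℝ k (dd f F A (i + n) p) u‖ ≤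
      cst mu C' K C k * (lam ^ 2 * mu) ^ (i + n) := fun i => h.iter_dd k (i + n) p u hu
  refine (tsum_of_norm_bounded (hs k).hasSum h3).trans (le_of_eq ?_)
  rw [tsum_mul_left]
  simp_rw [pow_add]
  rw [tsum_mul_right, tsum_geometric_of_lt_one h.rate0 h.rate]
  field_simp

theorem lim_zero (p : P) : lim f F A p 0 = 0 := by
  have h0 : (0 : E) ∈ ball (0 : E) r := mem_ball_self h.r0
  have h1 : ∀ i, dd f F A i p 0 = 0 := fun i => by
    rw [h.dd_eq i p h0]; simp [gg, h.F0]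
  simp [lim, h1, gg, h.F0]

/-- the derivative of the normalised composition at `0` is the identity -/
theorem fderiv_gg (n : ℕ) (p : P) : fderiv ℝ (gg F A n p) 0 = ContinuousLinearMap.id ℝ E := by
  have h0 : (0 : E) ∈ ball (0 : E) r := mem_ball_self h.r0
  have h1 : DifferentiableAt ℝ (F n p) 0 :=
    ((h.jF n).smooth (p, 0) ⟨trivial, h0⟩).differentiableAt (by simp)
  have h2 : fderiv ℝ (gg F A n p) 0 = ((A n p).symm : E →L[ℝ] E).comp (fderiv ℝ (F n p) 0) :=
    ((A n p).symm : E →L[ℝ] E).hasFDerivAt.comp (0 : E) h1.hasFDerivAt |>.fderiv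
  rw [h2, h.AF]
  ext v; simp

theorem fderiv_lim (p : P) : fderiv ℝ (lim f F A p) 0 = ContinuousLinearMap.id ℝ E := by
  have h0 : (0 : E) ∈ ball (0 : E) r := mem_ball_self h.r0
  have hl := h.jc_lim
  have h1 : ∀ n, ‖fderiv ℝ (lim f F A p) 0 - ContinuousLinearMap.id ℝ E‖ ≤
      cst mu C' K C 1 / (1 - lam ^ 2 * mu) * (lam ^ 2 * mu) ^ n := by
    intro n
    have h2 := h.iter_lim_sub 1 n p h0
    have h3 : iteratedFDeriv ℝ 1 (lim f F A p) 0 - iteratedFDeriv ℝ 1 (gg F A n p) 0 =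
        iteratedFDeriv ℝ 1 (fun u => lim f F A p u - gg F A n p u) 0 :=
      (iteratedFDeriv_sub_apply
        ((h.jc_lim.smooth (p, 0) ⟨trivial, h0⟩).of_le (by exact_mod_cast le_top))
        (((h.jc_gg n).smooth (p, 0) ⟨trivial, h0⟩).of_le (by exact_mod_cast le_top))).symm
    rw [h3, ← norm_iteratedFDeriv_fderiv, norm_iteratedFDeriv_zero] at h2
    have h4 : fderiv ℝ (fun u => lim f F A p u - gg F A n p u) 0 =
        fderiv ℝ (lim f F A p) 0 - fderiv ℝ (gg F A n p) 0 :=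
      fderiv_fun_sub ((h.jc_lim.smooth (p, 0) ⟨trivial, h0⟩).differentiableAt (by simp))
        (((h.jc_gg n).smooth (p, 0) ⟨trivial, h0⟩).differentiableAt (by simp))
    rw [h4, h.fderiv_gg] at h2
    exact h2
  have h5 : Tendsto (fun n : ℕ => cst mu C' K C 1 / (1 - lam ^ 2 * mu) * (lam ^ 2 * mu) ^ n)
      atTop (𝓝 0) := by
    simpa using (tendsto_pow_atTop_nhds_zero_of_lt_one h.rate0 h.rate).const_mul
      (cst mu C' K C 1 / (1 - lam ^ 2 * mu))
  have h6 : ‖fderiv ℝ (lim f F A p) 0 - ContinuousLinearMap.id ℝ E‖ ≤ 0 :=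
    ge_of_tendsto' h5 h1
  exact sub_eq_zero.mp (norm_le_zero_iff.mp h6)

theorem tendsto_gg (p : P) {u : E} (hu : u ∈ ball (0 : E) r) :
    Tendsto (fun n => gg F A n p u) atTop (𝓝 (lim f F A p u)) := by
  rw [tendsto_iff_norm_sub_tendsto_zero]
  have h5 : Tendsto (fun n : ℕ => cst mu C' K C 0 / (1 - lam ^ 2 * mu) * (lam ^ 2 * mu) ^ n)
      atTop (𝓝 0) := by
    simpa using (tendsto_pow_atTop_nhds_zero_of_lt_one h.rate0 h.rate).const_mul
      (cst mu C' K C 0 / (1 - lam ^ 2 * mu))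
  refine squeeze_zero (fun n => norm_nonneg _) (fun n => ?_) h5
  have h2 := h.iter_lim_sub 0 n p hu
  have h3 : iteratedFDeriv ℝ 0 (lim f F A p) u - iteratedFDeriv ℝ 0 (gg F A n p) u =
      iteratedFDeriv ℝ 0 (fun u => lim f F A p u - gg F A n p u) u :=
    (iteratedFDeriv_sub_apply
      ((h.jc_lim.smooth (p, u) ⟨trivial, hu⟩).of_le (by exact_mod_cast le_top))
      (((h.jc_gg n).smooth (p, u) ⟨trivial, hu⟩).of_le (by exact_mod_cast le_top))).symm
  rw [h3, norm_iteratedFDeriv_zero, norm_sub_rev] at h2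
  exact h2

end LinData

end Limit

end Vale.Agent.P207.H77
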